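import Vale.Agent.P143.Cayley

open MeasureTheory SimpleGraph Vale.Agent.P143

theorem Vale.Agent.Results.P143.FUSF.result :
    (∀ (Γ : Type) [Group Γ] (S : Finset Γ), Subgroup.closure (S : Set Γ) = ⊤ →
      ∃ Φ : (Γ → unitInterval) → ((mulCayley (S : Set Γ)).edgeSet → Bool),
        Measurable Φ ∧
        (∀ (γ : Γ) (U : Γ → unitInterval) (e e' : (mulCayley (S : Set Γ)).edgeSet),
          e'.1 = e.1.map (fun x => γ * x) → Φ (fun x => U (γ⁻¹ * x)) e' = Φ U e) ∧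
        IsFUSF (mulCayley (S : Set Γ)) ((iid Γ).map Φ)) ∧
    (∃ Φ : SimpleGraph ℕ → (ℕ → unitInterval) → Sym2 ℕ → Bool, IsGraphFactorMap Φ ∧
      (∀ G : SimpleGraph ℕ, G.Connected → (∀ v, (G.neighborSet v).Finite) →
        IsFUSF G ((iid ℕ).map fun U (e : G.edgeSet) => Φ G U e.1)) ∧
      ∀ P : Measure (SimpleGraph ℕ × ℕ), IsUnimodular P →
        ∀ᵐ p ∂P, IsFUSF p.1 ((iid ℕ).map fun U (e : p.1.edgeSet) => Φ p.1 U e.1)) :=
  ⟨cayley_factor, factor, ⟨measurable_factor, fun _ _ => factor_iso⟩,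
    fun _ hc hG => isFUSF_factor hG hc, fun _ hP => hP.2.1.mono fun _ hp => isFUSF_factor hp.2 hp.1⟩
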